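import Vale.Agent.Lib.P227.Stretch

/-!
# P227: the logarithmic Brunn-Minkowski inequality for a body with one block reflection symmetry
and its block stretch

`K` is an origin-symmetric convex body in `ℝ^ι × ℝ^κ` invariant under the reflection sending
x, y to -x, y; `T` multiplies x by `s > 0` and y by `t > 0`.  Then `T K` is an origin-symmetric
convex body, the image of `K` under the map multiplying x by `s^λ` and y by `t^λ` is contained in
the logarithmic combination of `K` and `T K`, and the inequality holds for the pair `K`, `T K`.
-/

namespace Vale.Agent.Results.P227.BlockStretch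

open _root_.P227

theorem result :
    ∀ (ι κ : Type) [Fintype ι] [Fintype κ] (K : Set (ι ⊕ κ → ℝ)) (s t lam : ℝ),
      IsSymBody K → (∀ z ∈ K, str (-1) 1 z ∈ K) → 0 < s → 0 < t → 0 ≤ lam → lam ≤ 1 →
      IsSymBody (str s t '' K) ∧
      str (s ^ lam) (t ^ lam) '' K ⊆ logComb lam K (str s t '' K) ∧
      LBM lam K (str s t '' K) := by
  intro ι κ _ _ K s t lam hK hflip hs ht h0 h1
  exact ⟨isSymBody_str hK hs ht, str_subset_logComb hK hflip hs ht h0 h1,
    lbm_str hK hflip hs ht h0 h1⟩

end Vale.Agent.Results.P227.BlockStretch
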