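import Vale.Agent.Lib.P227.Line

/-!
# P227: the logarithmic Brunn-Minkowski inequality is closed under Cartesian products

For origin-symmetric convex bodies `K₁, L₁ ⊆ ℝ^ι`, `K₂, L₂ ⊆ ℝ^κ` and `0 ≤ λ ≤ 1`:
(1) the product of the logarithmic combinations of the two pairs is contained in the logarithmic
combination of the products, and the inequality for the pairs K₁, L₁ and K₂, L₂ implies the
inequality for the pair K₁×K₂, L₁×L₂;
(2) the inequality holds for intervals;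
(3) the inequality for K, L implies the inequality for the cylinders K×[-a,a], L×[-b,b].
-/

namespace Vale.Agent.Results.P227.ProductClosure

open _root_.P227

theorem result :
    (∀ (ι κ : Type) [Fintype ι] [Fintype κ] (K₁ L₁ : Set (ι → ℝ)) (K₂ L₂ : Set (κ → ℝ))
      (lam : ℝ), IsSymBody K₁ → IsSymBody L₁ → IsSymBody K₂ → IsSymBody L₂ → 0 ≤ lam → lam ≤ 1 →
      IsSymBody (P237.prod K₁ K₂) ∧ IsSymBody (P237.prod L₁ L₂) ∧
      P237.prod (logComb lam K₁ L₁) (logComb lam K₂ L₂)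
        ⊆ logComb lam (P237.prod K₁ K₂) (P237.prod L₁ L₂) ∧
      (LBM lam K₁ L₁ → LBM lam K₂ L₂ → LBM lam (P237.prod K₁ K₂) (P237.prod L₁ L₂))) ∧
    (∀ a b lam : ℝ, 0 < a → 0 < b →
      IsSymBody (P237.seg1 (-a) a) ∧ LBM lam (P237.seg1 (-a) a) (P237.seg1 (-b) b)) ∧
    (∀ (ι : Type) [Fintype ι] (K L : Set (ι → ℝ)) (lam a b : ℝ), IsSymBody K → IsSymBody L →
      0 ≤ lam → lam ≤ 1 → 0 < a → 0 < b → LBM lam K L →
      LBM lam (P237.prod K (P237.seg1 (-a) a)) (P237.prod L (P237.seg1 (-b) b))) := by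
  refine ⟨?_, ?_, ?_⟩
  · intro ι κ _ _ K₁ L₁ K₂ L₂ lam hK₁ hL₁ hK₂ hL₂ h0 h1
    exact ⟨isSymBody_prod hK₁ hK₂, isSymBody_prod hL₁ hL₂,
      prod_logComb_subset hK₁ hL₁ hK₂ hL₂ h0 h1, lbm_prod hK₁ hL₁ hK₂ hL₂ h0 h1⟩
  · intro a b lam ha hb
    exact ⟨isSymBody_seg1 ha, lbm_seg1 ha hb lam⟩
  · intro ι _ K L lam a b hK hL h0 h1 ha hb H
    exact lbm_cylinder hK hL h0 h1 ha hb H

end Vale.Agent.Results.P227.ProductClosure
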